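import Vale.Agent.P004.R2.H428.Moll2x

/-!
# P004, exponential tail: `StMollx` from its parts
-/

open Real MeasureTheory Set

namespace P004G

namespace H428

open P004G.Moll
open P004 (StRepA StRepB StRepC)

variable [Crv]

lemma card_sqZ_le {Y : ℕ} (hY : 1 ≤ Y) : ((sqZ Y).card : ℝ) ≤ 3 * Y := by
  have h1 : (sqZ Y).card ≤ (Finset.Icc (-(Y : ℤ)) Y).card := by
    classical
    unfold sqZ
    exact Finset.card_filter_le _ _
  rw [Int.card_Icc] at h1
  have h2 : (sqZ Y).card ≤ 3 * Y := by omega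
  exact_mod_cast h2

/-- the module `W` for the mollifier `Mfx`, up to the main term -/
theorem mollx_of (hCo : StCoef) (hD : StDiv) (h0 : StTw0) (h2 : StTw2) (hPass : StPass)
    (hR2 : StR2x) (hR4 : StR4x) (hP : StPolyx) (hRC : StRepC)
    (h4 : ∃ C c : ℝ, 1 ≤ C ∧ 0 < c ∧ ∀ (Y : ℕ) (K : ℝ), 3 ≤ Y → 1 ≤ K →
      K ≤ Real.log Y ^ (1 / 8 : ℝ) →
      ∑ m ∈ sqZ Y, (Mfx (Real.log Y) K 0 ⌈Real.log Y⌉₊ (fun n => chi m n) *
        Fw Y (fun x => psi Y x * Real.exp (K / Real.log Y * x)) m - cmain Y K) ^ 2 ≤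
        C * Y * Real.exp (2 * K - c * K)) : StMollx := by
  obtain ⟨n, A1, C1, hC1, hp1⟩ := part1x hCo hD h2 hPass hR2 hP hRC
  obtain ⟨A2, B, C2, hC2, hp2⟩ := part2x hD h0 hP hR4
  obtain ⟨A3, C3, hC3, hp3⟩ := part3x hD h0 hP hR4
  obtain ⟨C4, c, hC4, hc, hp4⟩ := h4
  set A := max (A1 + 2 * B) (max A2 A3) with hAdef
  set C := max 3 (max C1 (max C2 (max C3 C4))) with hCdef
  have hb0 : (3 : ℝ) ≤ C := le_max_left _ _
  have hb1 : C1 ≤ C := (le_max_left _ _).trans (le_max_right _ _)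
  have hb2 : C2 ≤ C := (le_max_left _ _).trans ((le_max_right _ _).trans (le_max_right _ _))
  have hb3 : C3 ≤ C := (le_max_left _ _).trans ((le_max_right _ _).trans
    ((le_max_right _ _).trans (le_max_right _ _)))
  have hb4 : C4 ≤ C := (le_max_right _ _).trans ((le_max_right _ _).trans
    ((le_max_right _ _).trans (le_max_right _ _)))
  have ha1 : A1 + 2 * B ≤ A := le_max_left _ _
  have ha2 : A2 ≤ A := (le_max_left _ _).trans (le_max_right _ _)
  have ha3 : A3 ≤ A := (le_max_right _ _).trans (le_max_right _ _)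
  have hC0 : (0 : ℝ) ≤ C := by linarith
  refine ⟨n, A, C, c, by linarith, hc, ?_⟩
  intro Y K hY hK hK8
  have hL := logY_ge_one hY
  have hKL : K ≤ Real.log Y := by
    refine hK8.trans ?_
    calc Real.log Y ^ (1 / 8 : ℝ) ≤ Real.log Y ^ (1 : ℝ) :=
          Real.rpow_le_rpow_of_exponent_le hL (by norm_num)
      _ = Real.log Y := Real.rpow_one _
  have hY0 : (0 : ℝ) ≤ Y := Nat.cast_nonneg _
  have hK0 : (0 : ℝ) < K := by linarith
  have hKB : (1 : ℝ) ≤ K ^ B := one_le_pow₀ hK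
  have hKB0 : (0 : ℝ) < K ^ B := by positivity
  refine ⟨fun j m => if j = 0 then Mfx (Real.log Y) K 0 ⌈Real.log Y⌉₊ (fun n => chi m n) else
      K ^ B * Mfx (Real.log Y) K (2 * j) ⌈Real.log Y⌉₊ (fun n => chi m n),
    fun j m => if j = 0 then 1 else Mfx (Real.log Y) K 0 (2 * j) (fun n => chi m n) / K ^ B,
    ?_, ?_, ?_, ?_, ?_⟩
  · intro j m hj
    by_cases hj0 : j = 0
    · subst hj0
      simp only [if_true, mul_one]
    · simp only [if_true, if_neg hj0]
      rw [Mfx_split hY K m hj0 hj]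
      field_simp
  · intro j h b hj hh hs hb hder
    have h2j : (1 : ℝ) ≤ 2 ^ j := one_le_pow₀ (by norm_num)
    have h3 : (1 : ℝ) ≤ K * 2 ^ j := by nlinarith
    have h5 := hp1 Y K hY hK hKL j h b hj hh hs hb hder
    have h6 : C1 * Y * (K * 2 ^ j) ^ A1 * b ^ 2 ≤ C * Y * (K * 2 ^ j) ^ A * b ^ 2 := by
      have h7 : (K * 2 ^ j) ^ A1 ≤ (K * 2 ^ j) ^ A := pow_le_pow_right₀ h3 (by omega)
      gcongr
    by_cases hj0 : j = 0
    · subst hj0
      simp only [if_true]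
      rw [mul_zero] at h5
      exact h5.trans h6
    · simp only [if_neg hj0]
      have e1 : ∑ m ∈ sqZ Y, (K ^ B * Mfx (Real.log Y) K (2 * j) ⌈Real.log Y⌉₊
          (fun n => chi m n) * Fw Y h m) ^ 2 =
          K ^ (2 * B) * ∑ m ∈ sqZ Y, (Mfx (Real.log Y) K (2 * j) ⌈Real.log Y⌉₊
          (fun n => chi m n) * Fw Y h m) ^ 2 := by
        rw [Finset.mul_sum]
        refine Finset.sum_congr rfl fun m _ => ?_
        rw [pow_mul' K 2 B]
        ring
      rw [e1]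
      calc K ^ (2 * B) * ∑ m ∈ sqZ Y, (Mfx (Real.log Y) K (2 * j) ⌈Real.log Y⌉₊
            (fun n => chi m n) * Fw Y h m) ^ 2
          ≤ K ^ (2 * B) * (C1 * Y * (K * 2 ^ j) ^ A1 * b ^ 2) := by gcongr
        _ = C1 * Y * (K ^ (2 * B) * (K * 2 ^ j) ^ A1) * b ^ 2 := by ring
        _ ≤ C1 * Y * ((K * 2 ^ j) ^ (2 * B) * (K * 2 ^ j) ^ A1) * b ^ 2 := by
            have h8 : K ≤ K * 2 ^ j := le_mul_of_one_le_right hK0.le h2j
            gcongr
        _ = C1 * Y * (K * 2 ^ j) ^ (A1 + 2 * B) * b ^ 2 := by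
            rw [← pow_add, add_comm (2 * B) A1]
        _ ≤ C * Y * (K * 2 ^ j) ^ A * b ^ 2 := by
            have h7 : (K * 2 ^ j) ^ (A1 + 2 * B) ≤ (K * 2 ^ j) ^ A := pow_le_pow_right₀ h3 ha1
            gcongr
  · intro j _
    have h2j : (1 : ℝ) ≤ 2 ^ j := one_le_pow₀ (by norm_num)
    by_cases hj0 : j = 0
    · subst hj0
      simp only [if_true, one_pow, Finset.sum_const, nsmul_eq_mul, mul_one, pow_zero]
      refine (card_sqZ_le (by omega)).trans ?_
      gcongr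
    · simp only [if_neg hj0]
      have e1 : ∑ m ∈ sqZ Y, (Mfx (Real.log Y) K 0 (2 * j) (fun n => chi m n) / K ^ B) ^ 2 =
          (∑ m ∈ sqZ Y, (Mfx (Real.log Y) K 0 (2 * j) (fun n => chi m n)) ^ 2) / K ^ (2 * B) := by
        rw [Finset.sum_div]
        refine Finset.sum_congr rfl fun m _ => ?_
        rw [div_pow, pow_mul' K 2 B]
      rw [e1, div_le_iff₀ (by positivity)]
      have h5 := hp2 Y K hY hK hKL j
      refine h5.trans ?_
      have h6 : ((2 : ℝ) ^ j) ^ A2 ≤ (2 ^ j) ^ A := pow_le_pow_right₀ h2j ha2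
      have h7 : K ^ B ≤ K ^ (2 * B) := pow_le_pow_right₀ hK (by omega)
      gcongr
  · simp only [if_true]
    refine (hp3 Y K hY hK hKL).trans ?_
    have h5 : Real.log Y ^ A3 ≤ Real.log Y ^ A := pow_le_pow_right₀ hL ha3
    gcongr
  · simp only [if_true]
    refine (hp4 Y K hY hK hK8).trans ?_
    gcongr

end H428

end P004G
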