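import Vale.Agent.P004.R2.H428.Glue
import Vale.Agent.P004.R2.H760.Moll4x

/-!
# P004, exponential tail: the module `W`
-/

namespace P004G

namespace H428

open P004 (StRepA StRepB StRepC)

variable [Crv]

/-- Module Wx. -/
theorem pfMollx (hCo : StCoef) (hD : StDiv) (h0 : StTw0) (h1 : StTw1) (h2 : StTw2)
    (hPass : StPass) (hPN : StPassN) (hLim : StLim) (hLN : StLN) (hR2 : StR2x) (hR3 : StR3x)
    (hR4 : StR4x) (hP : StPolyx) (hRA : StRepA) (hRB : StRepB) (hRC : StRepC) : StMollx :=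
  mollx_of hCo hD h0 h2 hPass hR2 hR4 hP hRC
    (H760.part4x hCo hD h0 h1 h2 hPN hLim hLN hR2 hR3 hP hRA hRB)

end H428

end P004G
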